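import Mathlib
import Vale.Agent.P121.Final

/-!
# Non-existence of optimal Monge plans for the three-marginal Coulomb cost

We construct an absolutely continuous probability measure on `ℝ³` for which
no optimal plan of the three-marginal Coulomb problem is induced by maps.
-/

namespace Vale.Agent.Results.P121.Main

open MeasureTheory
open scoped ENNReal

/-- Three-dimensional Euclidean space. -/
abbrev R3 := EuclideanSpace ℝ (Fin 3)

/-- The Coulomb cost `1/|x₁-x₂| + 1/|x₁-x₃| + 1/|x₂-x₃|`, equal to `∞` if two points coincide. -/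
noncomputable def coulomb (x₁ x₂ x₃ : R3) : ℝ≥0∞ :=
  (ENNReal.ofReal ‖x₁ - x₂‖)⁻¹ + (ENNReal.ofReal ‖x₁ - x₃‖)⁻¹ + (ENNReal.ofReal ‖x₂ - x₃‖)⁻¹

/-- `π` is a coupling of `(μ, μ, μ)`: its three marginals are equal to `μ`. -/
def IsCoupling (μ : Measure R3) (π : Measure (R3 × R3 × R3)) : Prop :=
  π.map (fun q => q.1) = μ ∧ π.map (fun q => q.2.1) = μ ∧ π.map (fun q => q.2.2) = μ

/-- The Kantorovich value: the infimum of the cost over all couplings. -/
noncomputable def kantorovich (μ : Measure R3) : ℝ≥0∞ :=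
  ⨅ (π : Measure (R3 × R3 × R3)) (_ : IsCoupling μ π), ∫⁻ q, coulomb q.1 q.2.1 q.2.2 ∂π

/-- `(Id, T₂, T₃)` induces a Monge plan: Borel maps pushing `μ` forward to `μ`. -/
def IsMongePair (μ : Measure R3) (T₂ T₃ : R3 → R3) : Prop :=
  Measurable T₂ ∧ Measurable T₃ ∧ μ.map T₂ = μ ∧ μ.map T₃ = μ

/-- The cost of the Monge plan induced by `(Id, T₂, T₃)`. -/
noncomputable def mongeCost (μ : Measure R3) (T₂ T₃ : R3 → R3) : ℝ≥0∞ :=
  ∫⁻ x, coulomb x (T₂ x) (T₃ x) ∂μ

/-- `μ` admits an optimal Monge plan. -/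
def HasOptimalMongePlan (μ : Measure R3) : Prop :=
  ∃ T₂ T₃ : R3 → R3, IsMongePair μ T₂ T₃ ∧ mongeCost μ T₂ T₃ = kantorovich μ

/-- There is an absolutely continuous Borel probability measure on `ℝ³` with finite Kantorovich
value for the three-marginal Coulomb cost which admits no optimal Monge plan. -/
theorem result : ∃ μ : Measure R3, IsProbabilityMeasure μ ∧ μ ≪ volume ∧ kantorovich μ < ⊤ ∧
    ¬ HasOptimalMongePlan μ := by
  obtain ⟨μ, h1, h2, π, p1, p2, p3, hfin, hno⟩ := Vale.Agent.P121.final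
  have hle : kantorovich μ ≤ ∫⁻ q, coulomb q.1 q.2.1 q.2.2 ∂π := iInf₂_le π ⟨p1, p2, p3⟩
  refine ⟨μ, h1, h2, lt_of_le_of_lt hle hfin, ?_⟩
  rintro ⟨T₂, T₃, ⟨m2, m3, q2, q3⟩, hopt⟩
  exact hno T₂ T₃ m2 m3 q2 q3 (hopt.le.trans hle)

end Vale.Agent.Results.P121.Main
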